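import Vale.Agent.P245.Bdl.B2

/-! Lemma U, part U1: integration by parts at level `s` against a matrix field.
`X` has law `M p_s`, `Y = X + sqrt t Z`. -/

open MeasureTheory Real Set Filter Topology
open scoped ENNReal ContDiff

namespace Vale.Agent.P245.H401

open LS E1 LS.Down

variable {n : ℕ} {μ : Measure (Fin n → ℝ)} [IsProbabilityMeasure μ] {R : ℝ}

/-- weighted divergence of the matrix field `Q` with respect to `q = N p_s` :
`(div_q Q)_j = ∑_k (∂_k Q_jk + Q_jk (∂_k log N - ∂_k V_s))` -/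
noncomputable def dvq (μ : Measure (Fin n → ℝ)) (s : ℝ) (N : (Fin n → ℝ) → ℝ)
    (Q : Fin n → Fin n → (Fin n → ℝ) → ℝ) (j : Fin n) (x : Fin n → ℝ) : ℝ :=
  ∑ k, (pd (Q j k) k x + Q j k x * (sN N k x - DV μ s k x))

/-- `|Q|^2` (Hilbert-Schmidt) -/
noncomputable def hsq (Q : Fin n → Fin n → (Fin n → ℝ) → ℝ) (x : Fin n → ℝ) : ℝ :=
  ∑ j, ∑ k, Q j k x ^ 2

/-! ### regularity of `DV` -/

omit [IsProbabilityMeasure μ] in
theorem DV_form (s : ℝ) (k : Fin n) : DV μ s k = fun x => s⁻¹ * (x k - XB μ s k x) := by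
  funext x
  unfold DV
  rw [div_eq_mul_inv, mul_comm]

theorem DV_cont (h : CSupp μ R) (s : ℝ) (k : Fin n) : Continuous (DV μ s k) := by
  rw [DV_form]
  have := (XB_sb' h s k).continuous
  fun_prop

theorem DV_eg (h : CSupp μ R) (s : ℝ) (k : Fin n) : EG1 (DV μ s k) := by
  rw [DV_form]
  obtain ⟨C, hC⟩ := (XB_sb' h s k).bdd
  have h1 : EG1 (fun x : Fin n → ℝ => x k + (-1) * XB μ s k x) :=
    (EG1.coord k).add ((EG1.of_bdd' hC).const_mul (-1))
  have h2 := h1.const_mul s⁻¹
  have e : (fun x => s⁻¹ * (x k - XB μ s k x)) = fun x => s⁻¹ * (x k + (-1) * XB μ s k x) := by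
    funext x; ring
  rw [e]; exact h2

omit [IsProbabilityMeasure μ] in
theorem sb_eg {N : (Fin n → ℝ) → ℝ} (h : SB N) : EG1 N := by
  obtain ⟨C, hC⟩ := h.bdd
  exact EG1.of_bdd' hC

omit [IsProbabilityMeasure μ] in
theorem sN_sb {N : (Fin n → ℝ) → ℝ} (hN : Pos N) (k : Fin n) : SB (sN N k) := hN.div (hN.sb.pd k)

/-! ### one-dimensional integration by parts at level `s` -/

theorem EY_sub' (h : CSupp μ R) {Φ Ψ : (Fin n → ℝ) → ℝ} (hc : Continuous Φ) (hΦ : EG1 Φ)
    (hc' : Continuous Ψ) (hΨ : EG1 Ψ) (σ : ℝ) :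
    EY μ σ (fun y => Φ y - Ψ y) = EY μ σ Φ - EY μ σ Ψ := by
  have e : (fun y => Φ y - Ψ y) = fun y => Φ y + (-1) * Ψ y := by funext y; ring
  have hc2 : Continuous fun y => (-1 : ℝ) * Ψ y := continuous_const.mul hc'
  rw [e, EY_add' h hc hΦ hc2 (hΨ.const_mul (-1)) σ, EY_const_mul]
  ring

/-- `E (∂_k M) G = - E M (∂_k G - G ∂_k V_s)` -/
theorem ibp1 (h : CSupp μ R) {s : ℝ} (hs : 0 < s) {M G : (Fin n → ℝ) → ℝ} (hM : SB M)
    (hG : SB G) (k : Fin n) :
    EY μ s (fun x => pd M k x * G x)
      = -EY μ s (fun x => M x * (pd G k x - G x * DV μ s k x)) := by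
  have hd : ∀ y, HasFDerivAt (fun x => M x * G x) (lf fun i => pd (fun x => M x * G x) i y) y :=
    fun y => hasFDerivAt_lf ((hM.mul hG).differentiable y)
  have hMG : SB (fun x => M x * G x) := hM.mul hG
  have key := EY_ibp (μ := μ) h hs k hd (sb_eg hMG) ((hMG.pd k).continuous) (sb_eg (hMG.pd k))
  have e1 : pd (fun x => M x * G x) k = fun x => pd M k x * G x + M x * pd G k x := by
    have := pd_mul (n := n) hM.differentiable hG.differentiable k
    funext z
    rw [this z]; ring
  rw [e1] at key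
  have hDc := DV_cont (μ := μ) h s k
  have hDe := DV_eg (μ := μ) h s k
  have hMc := hM.continuous
  have hGc := hG.continuous
  have hMe := sb_eg hM
  have hGe := sb_eg hG
  have h1c : Continuous fun x => pd M k x * G x := (hM.pd k).continuous.mul hGc
  have h1e : EG1 fun x => pd M k x * G x := (sb_eg (hM.pd k)).mul hGe
  have h2c : Continuous fun x => M x * pd G k x := hMc.mul (hG.pd k).continuous
  have h2e : EG1 fun x => M x * pd G k x := hMe.mul (sb_eg (hG.pd k))
  have h3c : Continuous fun x => DV μ s k x * (M x * G x) := hDc.mul (hMc.mul hGc)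
  have h3e : EG1 fun x => DV μ s k x * (M x * G x) := hDe.mul (hMe.mul hGe)
  rw [EY_add' h h1c h1e h2c h2e] at key
  have e2 : (fun y => sc μ k s y * (M y * G y)) = fun y => (-1) * (DV μ s k y * (M y * G y)) := by
    funext y
    have := congrFun (DV_eq (μ := μ) s k) y
    rw [this]; ring
  rw [e2, EY_const_mul] at key
  have e3 : (fun x => M x * (pd G k x - G x * DV μ s k x))
      = fun x => M x * pd G k x - DV μ s k x * (M x * G x) := by
    funext x; ring
  rw [e3, EY_sub' h h2c h2e h3c h3e]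
  linarith only [key]

/-! ### the matrix version -/

/-- U1, exact: `E M <Q (s_M - s_N), P_t k> = - E M <div_q Q, P_t k> - E M sum Q_jk P_t (∂_k k_j)` -/
theorem ibpQ (h : CSupp μ R) {s t : ℝ} (hs : 0 < s) {N M : (Fin n → ℝ) → ℝ} (hN : Pos N)
    (hM : Pos M) {Q : Fin n → Fin n → (Fin n → ℝ) → ℝ} (hQ : ∀ j k, SB (Q j k))
    {kf : Fin n → (Fin n → ℝ) → ℝ} (hk : ∀ j, SB (kf j)) :
    EY μ s (fun x => M x * ∑ j, ∑ k, Q j k x * (sN M k x - sN N k x) * PH t (kf j) x)
      = -EY μ s (fun x => M x * ∑ j, dvq μ s N Q j x * PH t (kf j) x)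
        - EY μ s (fun x => M x * ∑ j, ∑ k, Q j k x * PH t (pd (kf j) k) x) := by
  have hP : ∀ j, SB (PH t (kf j)) := fun j => PH_sb (hk j) t
  have hP' : ∀ j k, SB (PH t (pd (kf j) k)) := fun j k => PH_sb ((hk j).pd k) t
  have hDc := fun k => DV_cont (μ := μ) h s k
  have hDe := fun k => DV_eg (μ := μ) h s k
  -- one term
  have key : ∀ j k, EY μ s (fun x => M x * (Q j k x * (sN M k x - sN N k x) * PH t (kf j) x))
      = -EY μ s (fun x => M x * ((pd (Q j k) k x + Q j k x * (sN N k x - DV μ s k x))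
          * PH t (kf j) x))
        - EY μ s (fun x => M x * (Q j k x * PH t (pd (kf j) k) x)) := by
    intro j k
    have hG : SB (fun x => Q j k x * PH t (kf j) x) := (hQ j k).mul (hP j)
    have h1 := ibp1 (μ := μ) h hs hM.sb hG k
    have e1 : pd (fun x => Q j k x * PH t (kf j) x) k
        = fun x => pd (Q j k) k x * PH t (kf j) x + Q j k x * PH t (pd (kf j) k) x := by
      have := pd_mul (n := n) (hQ j k).differentiable (hP j).differentiable k
      rw [LS.pd_PH (hk j)] at this
      funext z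
      rw [this z]; ring
    rw [e1] at h1
    have hMc := hM.sb.continuous
    have hMe := sb_eg hM.sb
    have hQc := (hQ j k).continuous
    have hQe := sb_eg (hQ j k)
    have hQpc := ((hQ j k).pd k).continuous
    have hQpe := sb_eg ((hQ j k).pd k)
    have hPc := (hP j).continuous
    have hPe := sb_eg (hP j)
    have hPpc := (hP' j k).continuous
    have hPpe := sb_eg (hP' j k)
    have hNc := (sN_sb hN k).continuous
    have hNe := sb_eg (sN_sb hN k)
    have hsMc := (sN_sb hM k).continuous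
    have hsMe := sb_eg (sN_sb hM k)
    have hDck := hDc k
    have hDek := hDe k
    -- pieces
    have A1c : Continuous fun x => pd M k x * (Q j k x * PH t (kf j) x) :=
      (hM.sb.pd k).continuous.mul (hQc.mul hPc)
    have A1e : EG1 fun x => pd M k x * (Q j k x * PH t (kf j) x) :=
      (sb_eg (hM.sb.pd k)).mul (hQe.mul hPe)
    have A2c : Continuous fun x => M x * (Q j k x * sN N k x * PH t (kf j) x) :=
      hMc.mul ((hQc.mul hNc).mul hPc)
    have A2e : EG1 fun x => M x * (Q j k x * sN N k x * PH t (kf j) x) :=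
      hMe.mul ((hQe.mul hNe).mul hPe)
    have A3c : Continuous fun x => M x * ((pd (Q j k) k x - Q j k x * DV μ s k x)
        * PH t (kf j) x) := hMc.mul ((hQpc.sub (hQc.mul hDck)).mul hPc)
    have A3e' : EG1 fun x => pd (Q j k) k x + (-1) * (Q j k x * DV μ s k x) :=
      hQpe.add ((hQe.mul hDek).const_mul (-1))
    have A3e : EG1 fun x => M x * ((pd (Q j k) k x - Q j k x * DV μ s k x)
        * PH t (kf j) x) := by
      have e : (fun x => pd (Q j k) k x - Q j k x * DV μ s k x)
          = fun x => pd (Q j k) k x + (-1) * (Q j k x * DV μ s k x) := by funext x; ring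
      have h0 : EG1 fun x => pd (Q j k) k x - Q j k x * DV μ s k x := by rw [e]; exact A3e'
      exact hMe.mul (h0.mul hPe)
    have A4c : Continuous fun x => M x * (Q j k x * PH t (pd (kf j) k) x) :=
      hMc.mul (hQc.mul hPpc)
    have A4e : EG1 fun x => M x * (Q j k x * PH t (pd (kf j) k) x) := hMe.mul (hQe.mul hPpe)
    have L : (fun x => M x * (Q j k x * (sN M k x - sN N k x) * PH t (kf j) x))
        = fun x => pd M k x * (Q j k x * PH t (kf j) x)
          - M x * (Q j k x * sN N k x * PH t (kf j) x) := by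
      funext x
      have hMx : M x ≠ 0 := (hM.pos x).ne'
      have : M x * sN M k x = pd M k x := by unfold sN; field_simp
      rw [← this]; ring
    have R1 : (fun x => M x * ((pd (Q j k) k x + Q j k x * (sN N k x - DV μ s k x))
          * PH t (kf j) x))
        = fun x => M x * ((pd (Q j k) k x - Q j k x * DV μ s k x) * PH t (kf j) x)
          + M x * (Q j k x * sN N k x * PH t (kf j) x) := by
      funext x; ring
    have R2 : (fun x => M x * (pd (Q j k) k x * PH t (kf j) x + Q j k x * PH t (pd (kf j) k) x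
          - Q j k x * PH t (kf j) x * DV μ s k x))
        = fun x => M x * ((pd (Q j k) k x - Q j k x * DV μ s k x) * PH t (kf j) x)
          + M x * (Q j k x * PH t (pd (kf j) k) x) := by
      funext x; ring
    rw [R2, EY_add' h A3c A3e A4c A4e] at h1
    rw [L, R1, EY_sub' h A1c A1e A2c A2e, EY_add' h A3c A3e A2c A2e, h1]
    ring
  -- summation
  have hcL : ∀ j k, Continuous fun x => M x * (Q j k x * (sN M k x - sN N k x)
      * PH t (kf j) x) := fun j k => hM.sb.continuous.mul
    (((hQ j k).continuous.mul ((sN_sb hM k).continuous.sub (sN_sb hN k).continuous)).mul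
      (hP j).continuous)
  have heL : ∀ j k, EG1 fun x => M x * (Q j k x * (sN M k x - sN N k x) * PH t (kf j) x) :=
    fun j k => sb_eg (hM.sb.mul (((hQ j k).mul ((sN_sb hM k).sub (sN_sb hN k))).mul (hP j)))
  have hcA : ∀ j k, Continuous fun x => M x * ((pd (Q j k) k x
      + Q j k x * (sN N k x - DV μ s k x)) * PH t (kf j) x) := fun j k =>
    hM.sb.continuous.mul ((((hQ j k).pd k).continuous.add
      ((hQ j k).continuous.mul ((sN_sb hN k).continuous.sub (hDc k)))).mul (hP j).continuous)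
  have heD : ∀ k, EG1 fun x => sN N k x - DV μ s k x := by
    intro k
    have e : (fun x => sN N k x - DV μ s k x) = fun x => sN N k x + (-1) * DV μ s k x := by
      funext x; ring
    rw [e]; exact (sb_eg (sN_sb hN k)).add ((hDe k).const_mul (-1))
  have heA : ∀ j k, EG1 fun x => M x * ((pd (Q j k) k x
      + Q j k x * (sN N k x - DV μ s k x)) * PH t (kf j) x) := fun j k =>
    (sb_eg hM.sb).mul (((sb_eg ((hQ j k).pd k)).add ((sb_eg (hQ j k)).mul (heD k))).mul
      (sb_eg (hP j)))
  have hcB : ∀ j k, Continuous fun x => M x * (Q j k x * PH t (pd (kf j) k) x) := fun j k =>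
    hM.sb.continuous.mul ((hQ j k).continuous.mul (hP' j k).continuous)
  have heB : ∀ j k, EG1 fun x => M x * (Q j k x * PH t (pd (kf j) k) x) := fun j k =>
    sb_eg (hM.sb.mul ((hQ j k).mul (hP' j k)))
  have S : ∀ F : Fin n → Fin n → (Fin n → ℝ) → ℝ, (∀ j k, Continuous (F j k)) →
      (∀ j k, EG1 (F j k)) →
      EY μ s (fun x => ∑ j, ∑ k, F j k x) = ∑ j, ∑ k, EY μ s (F j k) := by
    intro F hc he
    rw [EY_sum' h Finset.univ (Φ := fun j x => ∑ k, F j k x)
      (fun j _ => continuous_finsetSum _ fun k _ => hc j k)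
      (fun j _ => EG1.sum _ fun k _ => he j k)]
    refine Finset.sum_congr rfl fun j _ => ?_
    exact EY_sum' h Finset.univ (fun k _ => hc j k) (fun k _ => he j k) s
  have E1 : (fun x => M x * ∑ j, ∑ k, Q j k x * (sN M k x - sN N k x) * PH t (kf j) x)
      = fun x => ∑ j, ∑ k, M x * (Q j k x * (sN M k x - sN N k x) * PH t (kf j) x) := by
    funext x; simp only [Finset.mul_sum]
  have E2 : (fun x => M x * ∑ j, dvq μ s N Q j x * PH t (kf j) x)
      = fun x => ∑ j, ∑ k, M x * ((pd (Q j k) k x + Q j k x * (sN N k x - DV μ s k x))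
          * PH t (kf j) x) := by
    funext x
    unfold dvq
    simp only [Finset.mul_sum, Finset.sum_mul]
  have E3 : (fun x => M x * ∑ j, ∑ k, Q j k x * PH t (pd (kf j) k) x)
      = fun x => ∑ j, ∑ k, M x * (Q j k x * PH t (pd (kf j) k) x) := by
    funext x; simp only [Finset.mul_sum]
  rw [E1, E2, E3, S _ hcL heL, S _ hcA heA, S _ hcB heB, ← Finset.sum_neg_distrib,
    ← Finset.sum_sub_distrib]
  refine Finset.sum_congr rfl fun j _ => ?_
  rw [← Finset.sum_neg_distrib, ← Finset.sum_sub_distrib]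
  exact Finset.sum_congr rfl fun k _ => key j k

end Vale.Agent.P245.H401
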