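import Vale.Agent.P245.H401.U1

/-! Lemma U, part U1b: the Gaussian Cauchy-Schwarz bound and the per-output inequality. -/

open MeasureTheory Real Set Filter Topology
open scoped ENNReal ContDiff

namespace Vale.Agent.P245.H401

open LS E1 LS.Down

variable {n : ℕ} {μ : Measure (Fin n → ℝ)} [IsProbabilityMeasure μ] {R : ℝ}

/-! ### Cauchy-Schwarz -/

theorem cs_of_quad {A B C : ℝ}
    (h : ∀ a b : ℝ, 0 ≤ a ^ 2 * A + 2 * a * b * C + b ^ 2 * B) : C ^ 2 ≤ A * B := by
  have hB : 0 ≤ B := by have := h 0 1; linarith only [this]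
  have hA : 0 ≤ A := by have := h 1 0; linarith only [this]
  rcases hB.eq_or_lt with h0 | h0
  · rw [← h0, mul_zero]
    by_contra hC
    push Not at hC
    have hC0 : C ≠ 0 := by
      intro h
      rw [h] at hC
      norm_num at hC
    have h1 := h 1 (-(A + 1) / (2 * C))
    rw [← h0, mul_zero, add_zero] at h1
    have e : 1 ^ 2 * A + 2 * 1 * (-(A + 1) / (2 * C)) * C = -1 := by
      field_simp
      ring
    rw [e] at h1
    linarith only [h1]
  · have h1 := h B (-C)
    have h2 : 0 ≤ B * (A * B - C ^ 2) := by linarith only [h1]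
    have h3 := nonneg_of_mul_nonneg_right h2 h0
    linarith only [h3]

theorem abs_le_sqrt_mul_sqrt {A B C : ℝ} (hA : 0 ≤ A) (h : C ^ 2 ≤ A * B) : |C| ≤ √A * √B := by
  rw [← sqrt_mul hA, ← sqrt_sq_eq_abs]
  exact sqrt_le_sqrt h

section cs

variable {ι : Type*} [Fintype ι]

/-- Cauchy-Schwarz for the standard Gaussian measure -/
theorem gsn_cs {a b : ι → (Fin n → ℝ) → ℝ} (ha : ∀ i, Continuous (a i)) (ha' : ∀ i, EG1 (a i))
    (hb : ∀ i, Continuous (b i)) (hb' : ∀ i, EG1 (b i)) :
    (∫ z, ∑ i, a i z * b i z ∂(gsn n)) ^ 2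
      ≤ (∫ z, ∑ i, a i z ^ 2 ∂(gsn n)) * ∫ z, ∑ i, b i z ^ 2 ∂(gsn n) := by
  apply cs_of_quad
  intro u v
  have i1 : Integrable (fun z => ∑ i, a i z ^ 2) (gsn n) :=
    (EG1.sum Finset.univ fun i _ => by
      simpa only [pow_two] using (ha' i).mul (ha' i)).int
      (continuous_finsetSum _ fun i _ => (ha i).pow 2)
  have i2 : Integrable (fun z => ∑ i, b i z ^ 2) (gsn n) :=
    (EG1.sum Finset.univ fun i _ => by
      simpa only [pow_two] using (hb' i).mul (hb' i)).int
      (continuous_finsetSum _ fun i _ => (hb i).pow 2)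
  have i3 : Integrable (fun z => ∑ i, a i z * b i z) (gsn n) :=
    (EG1.sum Finset.univ fun i _ => (ha' i).mul (hb' i)).int
      (continuous_finsetSum _ fun i _ => (ha i).mul (hb i))
  have e : u ^ 2 * (∫ z, ∑ i, a i z ^ 2 ∂(gsn n)) + 2 * u * v * (∫ z, ∑ i, a i z * b i z ∂(gsn n))
      + v ^ 2 * (∫ z, ∑ i, b i z ^ 2 ∂(gsn n))
      = ∫ z, ∑ i, (u * a i z + v * b i z) ^ 2 ∂(gsn n) := by
    have i13 : Integrable (fun z => u ^ 2 * ∑ i, a i z ^ 2 + 2 * u * v * ∑ i, a i z * b i z)
        (gsn n) := (i1.const_mul _).add (i3.const_mul _)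
    rw [← integral_const_mul, ← integral_const_mul, ← integral_const_mul,
      ← integral_add (i1.const_mul _) (i3.const_mul _),
      ← integral_add i13 (i2.const_mul _)]
    apply integral_congr_ae
    refine Eventually.of_forall fun z => ?_
    simp only [Finset.mul_sum, ← Finset.sum_add_distrib]
    refine Finset.sum_congr rfl fun i _ => ?_
    ring
  rw [e]
  exact integral_nonneg fun z => Finset.sum_nonneg fun i _ => sq_nonneg _

/-- Cauchy-Schwarz at level `s` -/
theorem EY_cs (h : CSupp μ R) {s : ℝ} {M : (Fin n → ℝ) → ℝ} (hM : Pos M)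
    {a b : ι → (Fin n → ℝ) → ℝ} (ha : ∀ i, Continuous (a i)) (ha' : ∀ i, EG1 (a i))
    (hb : ∀ i, Continuous (b i)) (hb' : ∀ i, EG1 (b i)) :
    (EY μ s fun x => M x * ∑ i, a i x * b i x) ^ 2
      ≤ (EY μ s fun x => M x * ∑ i, a i x ^ 2) * EY μ s fun x => M x * ∑ i, b i x ^ 2 := by
  apply cs_of_quad
  intro u v
  have hMc := hM.sb.continuous
  have hMe := sb_eg hM.sb
  have c1 : Continuous fun x => M x * ∑ i, a i x ^ 2 :=
    hMc.mul (continuous_finsetSum _ fun i _ => (ha i).pow 2)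
  have e1 : EG1 fun x => M x * ∑ i, a i x ^ 2 := hMe.mul (EG1.sum _ fun i _ => by
    simpa only [pow_two] using (ha' i).mul (ha' i))
  have c2 : Continuous fun x => M x * ∑ i, b i x ^ 2 :=
    hMc.mul (continuous_finsetSum _ fun i _ => (hb i).pow 2)
  have e2 : EG1 fun x => M x * ∑ i, b i x ^ 2 := hMe.mul (EG1.sum _ fun i _ => by
    simpa only [pow_two] using (hb' i).mul (hb' i))
  have c3 : Continuous fun x => M x * ∑ i, a i x * b i x :=
    hMc.mul (continuous_finsetSum _ fun i _ => (ha i).mul (hb i))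
  have e3 : EG1 fun x => M x * ∑ i, a i x * b i x :=
    hMe.mul (EG1.sum _ fun i _ => (ha' i).mul (hb' i))
  have c1' : Continuous fun x => u ^ 2 * (M x * ∑ i, a i x ^ 2) := continuous_const.mul c1
  have c2' : Continuous fun x => v ^ 2 * (M x * ∑ i, b i x ^ 2) := continuous_const.mul c2
  have c3' : Continuous fun x => 2 * u * v * (M x * ∑ i, a i x * b i x) :=
    continuous_const.mul c3
  have E : u ^ 2 * (EY μ s fun x => M x * ∑ i, a i x ^ 2)
      + 2 * u * v * (EY μ s fun x => M x * ∑ i, a i x * b i x)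
      + v ^ 2 * (EY μ s fun x => M x * ∑ i, b i x ^ 2)
      = EY μ s fun x => M x * ∑ i, (u * a i x + v * b i x) ^ 2 := by
    have c13 : Continuous fun x => u ^ 2 * (M x * ∑ i, a i x ^ 2)
        + 2 * u * v * (M x * ∑ i, a i x * b i x) := c1'.add c3'
    rw [← EY_const_mul, ← EY_const_mul, ← EY_const_mul,
      ← EY_add' h c1' (e1.const_mul _) c3' (e3.const_mul _),
      ← EY_add' h c13 ((e1.const_mul _).add (e3.const_mul _)) c2' (e2.const_mul _)]
    congr 1
    funext x
    simp only [Finset.mul_sum, ← Finset.sum_add_distrib]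
    refine Finset.sum_congr rfl fun i _ => ?_
    ring
  rw [E]
  exact EY_nonneg μ s fun y => mul_nonneg (hM.pos y).le (Finset.sum_nonneg fun i _ => sq_nonneg _)

end cs

/-! ### Gaussian part -/

/-- `E_Y (Q (X - Y)/t)` against a field: `t (sum Q_jk P_t ∂_k k_j)^2 ≤ |Q|^2 P_t |k|^2`, pointwise -/
theorem gauss_Q {t : ℝ} (ht : 0 ≤ t) (Q : Fin n → Fin n → ℝ) {kf : Fin n → (Fin n → ℝ) → ℝ}
    (hk : ∀ j, SB (kf j)) (x : Fin n → ℝ) :
    t * (∑ j, ∑ k, Q j k * PH t (pd (kf j) k) x) ^ 2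
      ≤ (∑ j, ∑ k, Q j k ^ 2) * PH t (fun y => ∑ j, kf j y ^ 2) x := by
  have hac : ∀ j, Continuous fun z : Fin n → ℝ => kf j (x + √t • z) := fun j =>
    (hk j).continuous.comp (by fun_prop)
  have hae : ∀ j, EG1 fun z : Fin n → ℝ => kf j (x + √t • z) := fun j => by
    obtain ⟨C, hC⟩ := (hk j).bdd
    exact EG1.of_bdd' (C := C) fun z => hC _
  have hbc : ∀ j, Continuous fun z : Fin n → ℝ => ∑ k, Q j k * z k := fun j => by fun_prop
  have hbe : ∀ j, EG1 fun z : Fin n → ℝ => ∑ k, Q j k * z k := fun j =>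
    EG1.sum _ fun k _ => (EG1.coord k).const_mul (Q j k)
  have key := gsn_cs (ι := Fin n) hac hae hbc hbe
  have i0 : ∀ j k, Integrable (fun z : Fin n → ℝ => z k * kf j (x + √t • z)) (gsn n) :=
    fun j k => integrable_coord_mul (sb_cbd (hk j)) (by fun_prop) k
  have e1 : (∫ z, ∑ j, kf j (x + √t • z) * ∑ k, Q j k * z k ∂(gsn n))
      = √t * ∑ j, ∑ k, Q j k * PH t (pd (kf j) k) x := by
    have e2 : ∀ z : Fin n → ℝ, (∑ j, kf j (x + √t • z) * ∑ k, Q j k * z k)
        = ∑ j, ∑ k, Q j k * (z k * kf j (x + √t • z)) := by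
      intro z
      refine Finset.sum_congr rfl fun j _ => ?_
      rw [Finset.mul_sum]
      refine Finset.sum_congr rfl fun k _ => ?_
      ring
    simp_rw [e2]
    rw [integral_finsetSum _ fun j _ => integrable_finsetSum _ fun k _ => (i0 j k).const_mul _,
      Finset.mul_sum]
    refine Finset.sum_congr rfl fun j _ => ?_
    rw [integral_finsetSum _ fun k _ => (i0 j k).const_mul _, Finset.mul_sum]
    refine Finset.sum_congr rfl fun k _ => ?_
    rw [integral_const_mul, Down.ibp (hk j).differentiable (sb_cbd (hk j)) k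
      (sb_cbd ((hk j).pd k)) x (√t)]
    unfold PH
    ring
  have e3 : (∫ z, ∑ j, (∑ k, Q j k * z k) ^ 2 ∂(gsn n)) = ∑ j, ∑ k, Q j k ^ 2 := by
    have i2 : ∀ j ∈ (Finset.univ : Finset (Fin n)),
        Integrable (fun z : Fin n → ℝ => (∑ k, Q j k * z k) ^ 2) (gsn n) := fun j _ => by
      refine EG1.int ?_ ((hbc j).pow 2)
      simpa only [pow_two] using (hbe j).mul (hbe j)
    rw [integral_finsetSum _ i2]
    refine Finset.sum_congr rfl fun j _ => ?_
    have := gauss_affine_sq (n := n) 0 (fun k => Q j k)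
    simp only [zero_add] at this
    have e : (fun z : Fin n → ℝ => (∑ k, Q j k * z k) ^ 2)
        = fun z => (∑ k, z k * Q j k) ^ 2 := by
      funext z
      congr 1
      exact Finset.sum_congr rfl fun k _ => mul_comm _ _
    rw [e, this]
    ring
  rw [e1, e3, mul_pow, sq_sqrt ht] at key
  rw [mul_comm (∑ j, ∑ k, Q j k ^ 2)]
  exact key

/-- Jensen -/
theorem PH_jensen {t : ℝ} {kf : Fin n → (Fin n → ℝ) → ℝ} (hk : ∀ j, SB (kf j))
    (x : Fin n → ℝ) : ∑ j, PH t (kf j) x ^ 2 ≤ PH t (fun y => ∑ j, kf j y ^ 2) x := by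
  have h1 : PH t (fun y => ∑ j, kf j y ^ 2) x = ∑ j, PH t (fun y => kf j y ^ 2) x := by
    have := LS.PH_finsum (n := n) Finset.univ (N := fun j y => kf j y ^ 2)
      (fun j _ => (hk j).pow 2) t
    exact congrFun this x
  rw [h1]
  refine Finset.sum_le_sum fun j _ => ?_
  have hac : Continuous fun z : Fin n → ℝ => kf j (x + √t • z) :=
    (hk j).continuous.comp (by fun_prop)
  have hae : EG1 fun z : Fin n → ℝ => kf j (x + √t • z) := by
    obtain ⟨C, hC⟩ := (hk j).bdd
    exact EG1.of_bdd' (C := C) fun z => hC _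
  have key := gsn_cs (n := n) (ι := Unit) (a := fun _ z => kf j (x + √t • z))
    (b := fun _ _ => (1 : ℝ)) (fun _ => hac) (fun _ => hae) (fun _ => continuous_const)
    (fun _ => EG1.const 1)
  simp only [Finset.univ_unique, Finset.sum_const, Finset.card_singleton, one_smul, mul_one,
    one_pow, integral_const, probReal_univ, smul_eq_mul] at key
  exact key

/-! ### the inequality for one output -/

/-- U1, inequality: for `M` the unnormalised law of `X` given the output, `k` any field at level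
`s + t` -/
theorem U1_ineq (h : CSupp μ R) {s t : ℝ} (hs : 0 < s) (ht : 0 < t) {N M : (Fin n → ℝ) → ℝ}
    (hN : Pos N) (hM : Pos M) {Q : Fin n → Fin n → (Fin n → ℝ) → ℝ} (hQ : ∀ j k, SB (Q j k))
    {kf : Fin n → (Fin n → ℝ) → ℝ} (hk : ∀ j, SB (kf j)) :
    |EY μ s (fun x => M x * ∑ j, ∑ k, Q j k x * (sN M k x - sN N k x) * PH t (kf j) x)|
      ≤ (√((EY μ s fun x => M x * hsq Q x) / t)
          + √(EY μ s fun x => M x * ∑ j, dvq μ s N Q j x ^ 2))
        * √(EY μ s fun x => M x * PH t (fun y => ∑ j, kf j y ^ 2) x) := by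
  have hDc := fun k => DV_cont (μ := μ) h s k
  have hDe := fun k => DV_eg (μ := μ) h s k
  have hMc := hM.sb.continuous
  have hMe := sb_eg hM.sb
  have hksq : SB fun y => ∑ j, kf j y ^ 2 := SB.sum _ fun j _ => (hk j).pow 2
  have hP : ∀ j, SB (PH t (kf j)) := fun j => PH_sb (hk j) t
  have hP' : ∀ j k, SB (PH t (pd (kf j) k)) := fun j k => PH_sb ((hk j).pd k) t
  have hPk : SB (PH t (fun y => ∑ j, kf j y ^ 2)) := PH_sb hksq t
  have hK0 : ∀ x, 0 ≤ PH t (fun y => ∑ j, kf j y ^ 2) x := fun x =>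
    integral_nonneg fun z => Finset.sum_nonneg fun j _ => sq_nonneg _
  have hq : SB (hsq Q) := SB.sum _ fun j _ => SB.sum _ fun k _ => (hQ j k).pow 2
  have hq0 : ∀ x, 0 ≤ hsq Q x := fun x =>
    Finset.sum_nonneg fun j _ => Finset.sum_nonneg fun k _ => sq_nonneg _
  rw [ibpQ h hs hN hM hQ hk]
  have hdc : ∀ j, Continuous (dvq μ s N Q j) := fun j =>
    continuous_finsetSum _ fun k _ => ((hQ j k).pd k).continuous.add
      ((hQ j k).continuous.mul ((sN_sb hN k).continuous.sub (hDc k)))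
  have hde : ∀ j, EG1 (dvq μ s N Q j) := fun j =>
    EG1.sum _ fun k _ => (sb_eg ((hQ j k).pd k)).add ((sb_eg (hQ j k)).mul (by
      have e : (fun x => sN N k x - DV μ s k x) = fun x => sN N k x + (-1) * DV μ s k x := by
        funext x; ring
      rw [e]; exact (sb_eg (sN_sb hN k)).add ((hDe k).const_mul (-1))))
  -- divergence term
  have T1 := EY_cs (μ := μ) h (s := s) hM (ι := Fin n) hdc hde (fun j => (hP j).continuous)
    (fun j => sb_eg (hP j))
  have T1' : (EY μ s fun x => M x * ∑ j, PH t (kf j) x ^ 2)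
      ≤ EY μ s fun x => M x * PH t (fun y => ∑ j, kf j y ^ 2) x := by
    have b1 : SB fun x => M x * ∑ j, PH t (kf j) x ^ 2 :=
      hM.sb.mul (SB.sum _ fun j _ => (hP j).pow 2)
    have b2 : SB fun x => M x * PH t (fun y => ∑ j, kf j y ^ 2) x := hM.sb.mul hPk
    exact EY_mono_bmG (SB.bm b1) (SB.bm b2) (fun x => mul_le_mul_of_nonneg_left (PH_jensen hk x)
      (hM.pos x).le) s
  have D0 : 0 ≤ EY μ s fun x => M x * ∑ j, dvq μ s N Q j x ^ 2 :=
    EY_nonneg μ s fun y => mul_nonneg (hM.pos y).le (Finset.sum_nonneg fun j _ => sq_nonneg _)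
  have K0 : 0 ≤ EY μ s fun x => M x * PH t (fun y => ∑ j, kf j y ^ 2) x :=
    EY_nonneg μ s fun y => mul_nonneg (hM.pos y).le (hK0 y)
  have Q0 : 0 ≤ EY μ s fun x => M x * hsq Q x :=
    EY_nonneg μ s fun y => mul_nonneg (hM.pos y).le (hq0 y)
  have B1 : |EY μ s (fun x => M x * ∑ j, dvq μ s N Q j x * PH t (kf j) x)|
      ≤ √(EY μ s fun x => M x * ∑ j, dvq μ s N Q j x ^ 2)
        * √(EY μ s fun x => M x * PH t (fun y => ∑ j, kf j y ^ 2) x) :=
    abs_le_sqrt_mul_sqrt D0 (T1.trans (mul_le_mul_of_nonneg_left T1' D0))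
  -- Gaussian term
  have B2 : |EY μ s (fun x => M x * ∑ j, ∑ k, Q j k x * PH t (pd (kf j) k) x)|
      ≤ √((EY μ s fun x => M x * hsq Q x) / t)
        * √(EY μ s fun x => M x * PH t (fun y => ∑ j, kf j y ^ 2) x) := by
    have hG : SB fun x => ∑ j, ∑ k, Q j k x * PH t (pd (kf j) k) x :=
      SB.sum _ fun j _ => SB.sum _ fun k _ => (hQ j k).mul (hP' j k)
    have hsb1 : SB fun x => M x * ∑ j, ∑ k, Q j k x * PH t (pd (kf j) k) x := hM.sb.mul hG
    have step : ∀ c : ℝ, 0 < c →
        |EY μ s (fun x => M x * ∑ j, ∑ k, Q j k x * PH t (pd (kf j) k) x)|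
          ≤ c / 2 * ((EY μ s fun x => M x * hsq Q x) / t)
            + 1 / (2 * c) * EY μ s fun x => M x * PH t (fun y => ∑ j, kf j y ^ 2) x := by
      intro c hc
      have hb2 : SB fun x => c / 2 / t * (M x * hsq Q x) := (hM.sb.mul hq).const_mul _
      have hb3 : SB fun x => 1 / (2 * c) * (M x * PH t (fun y => ∑ j, kf j y ^ 2) x) :=
        (hM.sb.mul hPk).const_mul _
      have hpt : ∀ x, |M x * ∑ j, ∑ k, Q j k x * PH t (pd (kf j) k) x|
          ≤ c / 2 / t * (M x * hsq Q x)
            + 1 / (2 * c) * (M x * PH t (fun y => ∑ j, kf j y ^ 2) x) := by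
        intro x
        have g := gauss_Q ht.le (fun j k => Q j k x) hk x
        set G := ∑ j, ∑ k, Q j k x * PH t (pd (kf j) k) x with hGd
        set K := PH t (fun y => ∑ j, kf j y ^ 2) x with hKd
        have g' : t * G ^ 2 ≤ hsq Q x * K := g
        rw [abs_mul, abs_of_pos (hM.pos x)]
        have hK := hK0 x
        have hqx := hq0 x
        have am : |G| ≤ c / 2 / t * hsq Q x + 1 / (2 * c) * K := by
          have h1 : G ^ 2 ≤ (c / 2 / t * hsq Q x + 1 / (2 * c) * K) ^ 2 := by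
            have h2 : G ^ 2 ≤ hsq Q x * K / t := by
              rw [le_div_iff₀ ht]; linarith only [g']
            have h3 : hsq Q x * K / t ≤ (c / 2 / t * hsq Q x + 1 / (2 * c) * K) ^ 2 := by
              have e : (c / 2 / t * hsq Q x + 1 / (2 * c) * K) ^ 2 - hsq Q x * K / t
                  = (c / 2 / t * hsq Q x - 1 / (2 * c) * K) ^ 2 := by
                field_simp
                ring
              have := sq_nonneg (c / 2 / t * hsq Q x - 1 / (2 * c) * K)
              linarith only [e, this]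
            exact h2.trans h3
          have h0 : 0 ≤ c / 2 / t * hsq Q x + 1 / (2 * c) * K := by positivity
          exact abs_le_of_sq_le_sq h1 h0
        calc M x * |G| ≤ M x * (c / 2 / t * hsq Q x + 1 / (2 * c) * K) :=
              mul_le_mul_of_nonneg_left am (hM.pos x).le
          _ = _ := by ring
      have e1 : EY μ s (fun x => c / 2 / t * (M x * hsq Q x)
            + 1 / (2 * c) * (M x * PH t (fun y => ∑ j, kf j y ^ 2) x))
          = c / 2 * ((EY μ s fun x => M x * hsq Q x) / t)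
            + 1 / (2 * c) * EY μ s fun x => M x * PH t (fun y => ∑ j, kf j y ^ 2) x := by
        rw [EY_add_bm (SB.bm hb2) (SB.bm hb3), EY_const_mul, EY_const_mul]
        ring
      rw [← e1, abs_le]
      have hneg : SB fun x => -1 * (c / 2 / t * (M x * hsq Q x)
            + 1 / (2 * c) * (M x * PH t (fun y => ∑ j, kf j y ^ 2) x)) :=
        (hb2.add hb3).const_mul _
      constructor
      · have := EY_mono_bmG (μ := μ) (SB.bm hneg) (SB.bm hsb1)
          (fun x => by linarith only [(abs_le.1 (hpt x)).1]) s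
        rw [EY_const_mul] at this
        linarith only [this]
      · exact EY_mono_bmG (μ := μ) (SB.bm hsb1) (SB.bm (hb2.add hb3))
          (fun x => (abs_le.1 (hpt x)).2) s
    have Qt0 : 0 ≤ (EY μ s fun x => M x * hsq Q x) / t := div_nonneg Q0 ht.le
    refine abs_le_sqrt_mul_sqrt Qt0 ?_
    set G := EY μ s (fun x => M x * ∑ j, ∑ k, Q j k x * PH t (pd (kf j) k) x) with hGd
    set A := (EY μ s fun x => M x * hsq Q x) / t with hAd
    set B := EY μ s fun x => M x * PH t (fun y => ∑ j, kf j y ^ 2) x with hBd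
    apply cs_of_quad
    intro u v
    -- from `|G| ≤ c/2 A + B/(2c)` for all `c > 0`
    rcases eq_or_ne u 0 with hu | hu
    · subst hu
      have : 0 ≤ v ^ 2 * B := mul_nonneg (sq_nonneg _) K0
      linarith only [this]
    rcases eq_or_ne v 0 with hv | hv
    · subst hv
      have : 0 ≤ u ^ 2 * A := mul_nonneg (sq_nonneg _) Qt0
      linarith only [this]
    have hc : 0 < |u| / |v| := div_pos (abs_pos.2 hu) (abs_pos.2 hv)
    have h1 := step (|u| / |v|) hc
    have huv : 0 < |u| * |v| := mul_pos (abs_pos.2 hu) (abs_pos.2 hv)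
    have h2 := mul_le_mul_of_nonneg_left h1 (mul_pos (two_pos (α := ℝ)) huv).le
    have e2 : 2 * (|u| * |v|) * (|u| / |v| / 2 * A + 1 / (2 * (|u| / |v|)) * B)
        = |u| ^ 2 * A + |v| ^ 2 * B := by
      have h3 : |u| ≠ 0 := (abs_pos.2 hu).ne'
      have h4 : |v| ≠ 0 := (abs_pos.2 hv).ne'
      field_simp
    rw [e2, sq_abs, sq_abs] at h2
    have h5 : -(2 * u * v * G) ≤ 2 * (|u| * |v|) * |G| := by
      have := neg_le_abs (2 * u * v * G)
      rw [abs_mul, abs_mul, abs_mul, abs_two] at this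
      linarith only [this]
    linarith only [h2, h5]
  calc |-EY μ s (fun x => M x * ∑ j, dvq μ s N Q j x * PH t (kf j) x)
        - EY μ s (fun x => M x * ∑ j, ∑ k, Q j k x * PH t (pd (kf j) k) x)|
      ≤ |EY μ s (fun x => M x * ∑ j, dvq μ s N Q j x * PH t (kf j) x)|
        + |EY μ s (fun x => M x * ∑ j, ∑ k, Q j k x * PH t (pd (kf j) k) x)| := by
        have := abs_sub (-EY μ s (fun x => M x * ∑ j, dvq μ s N Q j x * PH t (kf j) x))
          (EY μ s (fun x => M x * ∑ j, ∑ k, Q j k x * PH t (pd (kf j) k) x))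
        rw [abs_neg] at this
        exact this
    _ ≤ _ := by
        rw [add_mul]
        linarith only [B1, B2]

end Vale.Agent.P245.H401
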